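import Vale.Agent.H29.CR.Main
import Vale.Agent.H29.CR.Lower
import Vale.Agent.H45.CRB.Main
import Vale.Agent.H13.CF.Reduce
import Vale.Agent.H13.CF.Lower

/-!
# P048: cycle-complete Ramsey numbers on three classes of colourings, in one statement

Let `V` be a finite vertex set and `m`, `n` natural numbers. A graph `G` on `V` is read as the
red graph of a red-blue colouring of the complete graph on `V`; its complement is the blue graph.

1. If `6 ≤ m` and `1 ≤ n ≤ m`: every graph `G` on `V` whose complement is `n`-colourable contains
   a cycle of length exactly `m` or an independent set of `n` vertices if and only if `V` has more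
   than `(m-1)(n-1)` elements.
2. If `2 n + 3 ≤ m` and `V` has more than `(m-1)(n-1)` elements: every graph `G` on `V` whose
   complement is `(n+1)`-colourable contains a cycle of length exactly `m` or an independent set
   of `n` vertices.
3. If `6 ≤ m` and `1 ≤ n ≤ m`: every claw-free graph `G` on `V` (no vertex has three pairwise
   non-adjacent neighbours) contains a cycle of length exactly `m` or an independent set of `n`
   vertices if and only if `V` has more than `(m-1)(n-1)` elements.

The three parts are the statements of the hand-ins `A0_ColourableBlueExact`,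
`A1_NPlusOneCliques` and `B0_ClawFreeExact` of this folder.
-/

namespace Vale.Agent.Results.P048.A00_ThreeClasses

open SimpleGraph

theorem result {V : Type*} [Fintype V] (m n : ℕ) :
    (6 ≤ m → 1 ≤ n → n ≤ m →
      ((∀ G : SimpleGraph V, (compl G).Colorable n →
          (∃ (v : V) (p : G.Walk v v), p.IsCycle ∧ p.length = m) ∨
            ∃ s : Finset V, G.IsNIndepSet n s) ↔
        (m - 1) * (n - 1) < Fintype.card V)) ∧
    (2 * n + 3 ≤ m → (m - 1) * (n - 1) < Fintype.card V →
      ∀ G : SimpleGraph V, (compl G).Colorable (n + 1) →
        (∃ (v : V) (p : G.Walk v v), p.IsCycle ∧ p.length = m) ∨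
          ∃ s : Finset V, G.IsNIndepSet n s) ∧
    (6 ≤ m → 1 ≤ n → n ≤ m →
      ((∀ G : SimpleGraph V,
          (∀ v a b c : V, G.Adj v a → G.Adj v b → G.Adj v c → a ≠ b → a ≠ c → b ≠ c →
            G.Adj a b ∨ G.Adj a c ∨ G.Adj b c) →
          (∃ (v : V) (p : G.Walk v v), p.IsCycle ∧ p.length = m) ∨
            ∃ s : Finset V, G.IsNIndepSet n s) ↔
        (m - 1) * (n - 1) < Fintype.card V)) := by
  classical
  refine ⟨?_, ?_, ?_⟩
  · intro hm hn hnm
    constructor
    · intro h
      by_contra hcon
      obtain ⟨G, hcol, hcyc, hind⟩ :=
        Vale.Agent.H29.CR.lower_example (V := V) m n (by omega) hn (by omega)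
      rcases h G hcol with hc | ⟨s, hs⟩
      · exact hcyc hc
      · exact hind s hs
    · intro hcard G hcol
      exact Vale.Agent.H29.CR.cycle_or_indep G m n hm hnm hcol hcard
  · intro hmn hcard G hcol
    exact Vale.Agent.H45.CRB.cycle_or_indep_succ G m n hmn hcol hcard
  · intro hm hn hnm
    constructor
    · intro h
      by_contra hcon
      obtain ⟨G, hclaw, hcyc, hind⟩ :=
        Vale.Agent.H13.CF.cf_lower_example (V := V) m n (by omega) hn (by omega)
      rcases h G hclaw with hc | ⟨s, hs⟩
      · exact hcyc hc
      · exact hind s hs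
    · intro hcard G hclaw
      by_cases hcyc : Vale.Agent.H29.CR.HasCycle G m
      · exact Or.inl hcyc
      · exact Or.inr (Vale.Agent.H13.CF.clawfree_core m hm n hnm V G hclaw hcyc hcard)

end Vale.Agent.Results.P048.A00_ThreeClasses
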