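import Vale.Agent.H29.CR.Main
import Vale.Agent.H29.CR.Lower

/-!
# Cycle-complete Ramsey numbers on colourings with an `n`-colourable blue graph: exact value

Let `6 ≤ m` and `1 ≤ n ≤ m`, and let `V` be a finite vertex set. Every graph `G` on `V` whose
complement is `n`-colourable (the vertex set of `G` is covered by `n` cliques) contains a cycle
of length exactly `m` or an independent set of `n` vertices if and only if `V` has more than
`(m-1)(n-1)` elements.
-/

namespace Vale.Agent.Results.P048.A0_ColourableBlueExact

open SimpleGraph

theorem result {V : Type*} [Fintype V] (m n : ℕ) (hm : 6 ≤ m) (hn : 1 ≤ n) (hnm : n ≤ m) :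
    (∀ G : SimpleGraph V, Gᶜ.Colorable n →
        (∃ (v : V) (p : G.Walk v v), p.IsCycle ∧ p.length = m) ∨
          ∃ s : Finset V, G.IsNIndepSet n s) ↔
      (m - 1) * (n - 1) < Fintype.card V := by
  constructor
  · intro h
    by_contra hcon
    obtain ⟨G, hcol, hcyc, hind⟩ :=
      Vale.Agent.H29.CR.lower_example (V := V) m n (by omega) hn (by omega)
    rcases h G hcol with hc | ⟨s, hs⟩
    · exact hcyc hc
    · exact hind s hs
  · intro hcard G hcol
    exact Vale.Agent.H29.CR.cycle_or_indep G m n hm hnm hcol hcard

end Vale.Agent.Results.P048.A0_ColourableBlueExact
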