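import Vale.Agent.H45.CRB.Main

/-!
# Cycle-complete Ramsey numbers: colourings with an `(n+1)`-colourable blue graph

If the complement of a finite graph `G` is `(n+1)`-colourable (the vertex set of `G` is covered
by `n + 1` cliques), `2 * n + 3 ≤ m` and `G` has more than `(m-1)(n-1)` vertices, then `G`
contains a cycle of length exactly `m` or an independent set of `n` vertices.
-/

namespace Vale.Agent.Results.P048.A1_NPlusOneCliques

open SimpleGraph

theorem result {V : Type*} [Fintype V] (G : SimpleGraph V) (m n : ℕ) (hmn : 2 * n + 3 ≤ m)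
    (hcol : Gᶜ.Colorable (n + 1)) (hcard : (m - 1) * (n - 1) < Fintype.card V) :
    (∃ (v : V) (p : G.Walk v v), p.IsCycle ∧ p.length = m) ∨
      ∃ s : Finset V, G.IsNIndepSet n s :=
  Vale.Agent.H45.CRB.cycle_or_indep_succ G m n hmn hcol hcard

end Vale.Agent.Results.P048.A1_NPlusOneCliques
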