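import Vale.Agent.H13.CF.Reduce
import Vale.Agent.H13.CF.Lower

/-!
# P048: the cycle-complete Ramsey number on claw-free graphs, exact value

Let `6 ≤ m` and `1 ≤ n ≤ m`, and let `V` be a finite vertex set. Every claw-free graph `G` on
`V` (no vertex has three pairwise non-adjacent neighbours) contains a cycle of length exactly
`m` or an independent set of `n` vertices if and only if `V` has more than `(m-1)(n-1)`
elements.
-/

namespace Vale.Agent.Results.P048.A2_ClawFreeExact

open SimpleGraph

theorem result {V : Type*} [Fintype V] (m n : ℕ) (hm : 6 ≤ m) (hn : 1 ≤ n) (hnm : n ≤ m) :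
    (∀ G : SimpleGraph V,
        (∀ v a b c : V, G.Adj v a → G.Adj v b → G.Adj v c → a ≠ b → a ≠ c → b ≠ c →
          G.Adj a b ∨ G.Adj a c ∨ G.Adj b c) →
        (∃ (v : V) (p : G.Walk v v), p.IsCycle ∧ p.length = m) ∨
          ∃ s : Finset V, G.IsNIndepSet n s) ↔
      (m - 1) * (n - 1) < Fintype.card V := by
  classical
  constructor
  · intro h
    by_contra hcon
    obtain ⟨G, hclaw, hcyc, hind⟩ :=
      Vale.Agent.H13.CF.cf_lower_example (V := V) m n (by omega) hn (by omega)
    rcases h G hclaw with hc | ⟨s, hs⟩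
    · exact hcyc hc
    · exact hind s hs
  · intro hcard G hclaw
    by_cases hcyc : Vale.Agent.H29.CR.HasCycle G m
    · exact Or.inl hcyc
    · exact Or.inr (Vale.Agent.H13.CF.clawfree_core m hm n hnm V G hclaw hcyc hcard)

end Vale.Agent.Results.P048.A2_ClawFreeExact
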