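import Vale.Agent.H29.CR.Main

/-!
# Cycle-complete Ramsey numbers: colourings with an `n`-colourable blue graph

If the complement of a finite graph `G` is `n`-colourable (the vertex set of `G` is covered by
`n` cliques), `6 ≤ m`, `n ≤ m` and `G` has more than `(m-1)(n-1)` vertices, then `G` contains a
cycle of length exactly `m` or an independent set of `n` vertices.
-/

namespace Vale.Agent.Results.P048.A_ColourableBlueGraph

open SimpleGraph

theorem result {V : Type*} [Fintype V] (G : SimpleGraph V) (m n : ℕ) (hm : 6 ≤ m)
    (hnm : n ≤ m) (hcol : Gᶜ.Colorable n) (hcard : (m - 1) * (n - 1) < Fintype.card V) :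
    (∃ (v : V) (p : G.Walk v v), p.IsCycle ∧ p.length = m) ∨
      ∃ s : Finset V, G.IsNIndepSet n s :=
  Vale.Agent.H29.CR.cycle_or_indep G m n hm hnm hcol hcard

end Vale.Agent.Results.P048.A_ColourableBlueGraph
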