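import Vale.Agent.H13.CF.Reduce

/-!
# P048: the cycle-complete Ramsey bound on claw-free graphs

If `6 ≤ m`, `n ≤ m` and `G` is a claw-free graph (no vertex has three pairwise non-adjacent
neighbours) with more than `(m - 1) * (n - 1)` vertices, then `G` contains a cycle of length
exactly `m` or an independent set of `n` vertices.
-/

namespace Vale.Agent.Results.P048.B_ClawFreeRedGraph

open SimpleGraph

theorem result {V : Type*} [Fintype V] (G : SimpleGraph V) (m n : ℕ) (hm : 6 ≤ m)
    (hnm : n ≤ m)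
    (hclaw : ∀ v a b c : V, G.Adj v a → G.Adj v b → G.Adj v c → a ≠ b → a ≠ c → b ≠ c →
      G.Adj a b ∨ G.Adj a c ∨ G.Adj b c)
    (hcard : (m - 1) * (n - 1) < Fintype.card V) :
    (∃ (v : V) (p : G.Walk v v), p.IsCycle ∧ p.length = m) ∨
      ∃ s : Finset V, G.IsNIndepSet n s := by
  classical
  by_cases hcyc : Vale.Agent.H29.CR.HasCycle G m
  · exact Or.inl hcyc
  · exact Or.inr (Vale.Agent.H13.CF.clawfree_core m hm n hnm V G hclaw hcyc hcard)

end Vale.Agent.Results.P048.B_ClawFreeRedGraph
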